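import Mathlib
import Crest.Agent.Helper5.SqDefs

/-!
# Row 211 / S0326: the square kit (K1–K4)

* `lattice_cover` (K1): a sheared integer lattice meets every unit square.
* `exists_frame` (K2): a traceless endomorphism of the plane has a zero-diagonal orthonormal frame.
* `measurableSet_sq`, `volume_sq` (K3): rotated half-open squares are measurable of area `ρ²`.
* `J_lipschitz` (K4): the cost density is Lipschitz in the velocity.
-/

namespace Crest.Agent.Helper22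

open Crest.Agent.Helper5

/-- (K1) For `0 ≤ b c < 1`, the lattice `{(m + b n, c m + n)}` meets every closed unit square
`[u-1,u] × [v-1,v]`. -/
theorem lattice_cover (b c : ℝ) (h0 : 0 ≤ b * c) (h1 : b * c < 1) (u v : ℝ) :
    ∃ m n : ℤ, u - 1 ≤ (m : ℝ) + b * n ∧ (m : ℝ) + b * n ≤ u ∧
      v - 1 ≤ c * (m : ℝ) + n ∧ c * (m : ℝ) + n ≤ v := by
  have hM1 : ∀ n : ℤ, ((⌊u - b * n⌋ : ℤ) : ℝ) ≤ u - b * n := fun n => Int.floor_le _
  have hM2 : ∀ n : ℤ, u - b * n - 1 < ((⌊u - b * n⌋ : ℤ) : ℝ) := fun n => Int.sub_one_lt_floor _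
  have hcM1 : ∀ n : ℤ, c * (u - b * n) - |c| ≤ c * ((⌊u - b * n⌋ : ℤ) : ℝ) := by
    intro n
    have h1 := hM1 n; have h2 := hM2 n
    rcases le_total 0 c with hc | hc
    · rw [abs_of_nonneg hc]; nlinarith
    · rw [abs_of_nonpos hc]; nlinarith
  have hcM2 : ∀ n : ℤ, c * ((⌊u - b * n⌋ : ℤ) : ℝ) ≤ c * (u - b * n) + |c| := by
    intro n
    have h1 := hM1 n; have h2 := hM2 n
    rcases le_total 0 c with hc | hc
    · rw [abs_of_nonneg hc]; nlinarith
    · rw [abs_of_nonpos hc]; nlinarith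
  have hstep : ∀ n : ℤ, c * ((⌊u - b * ((n + 1 : ℤ) : ℝ)⌋ : ℤ) : ℝ) ≤ c * ((⌊u - b * n⌋ : ℤ) : ℝ) := by
    intro n
    rcases lt_trichotomy b 0 with hb | hb | hb
    · have hc : c ≤ 0 := by
        by_contra hc
        rw [not_le] at hc
        have : b * c < 0 := mul_neg_of_neg_of_pos hb hc
        linarith
      have hmono : ⌊u - b * n⌋ ≤ ⌊u - b * ((n + 1 : ℤ) : ℝ)⌋ := by
        apply Int.floor_le_floor
        push_cast; nlinarith
      have hmono' : ((⌊u - b * n⌋ : ℤ) : ℝ) ≤ ((⌊u - b * ((n + 1 : ℤ) : ℝ)⌋ : ℤ) : ℝ) := by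
        exact_mod_cast hmono
      nlinarith
    · subst hb; simp
    · have hc : 0 ≤ c := by
        by_contra hc
        rw [not_le] at hc
        have : b * c < 0 := mul_neg_of_pos_of_neg hb hc
        linarith
      have hmono : ⌊u - b * ((n + 1 : ℤ) : ℝ)⌋ ≤ ⌊u - b * n⌋ := by
        apply Int.floor_le_floor
        push_cast; nlinarith
      have hmono' : ((⌊u - b * ((n + 1 : ℤ) : ℝ)⌋ : ℤ) : ℝ) ≤ ((⌊u - b * n⌋ : ℤ) : ℝ) := by
        exact_mod_cast hmono
      nlinarith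
  have hpos : 0 < 1 - b * c := by linarith
  obtain ⟨n, hn, hmax⟩ := Int.exists_greatest_of_bdd
    (P := fun n : ℤ => 0 ≤ v - c * ((⌊u - b * n⌋ : ℤ) : ℝ) - n)
    ⟨⌈(v - c * u + |c|) / (1 - b * c)⌉, fun z hz => by
      have h1' := hcM1 z
      have hz' : (1 - b * c) * (z : ℝ) ≤ v - c * u + |c| := by nlinarith
      have hz'' : (z : ℝ) ≤ (v - c * u + |c|) / (1 - b * c) := by
        rw [le_div_iff₀ hpos]; linarith
      have hz3 := Int.le_ceil ((v - c * u + |c|) / (1 - b * c))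
      exact_mod_cast (hz''.trans hz3)⟩
    ⟨⌊(v - c * u - |c|) / (1 - b * c)⌋, by
      have h2' := hcM2 ⌊(v - c * u - |c|) / (1 - b * c)⌋
      have h3 : ((⌊(v - c * u - |c|) / (1 - b * c)⌋ : ℤ) : ℝ) ≤ (v - c * u - |c|) / (1 - b * c) :=
        Int.floor_le _
      have h4 : (1 - b * c) * ((⌊(v - c * u - |c|) / (1 - b * c)⌋ : ℤ) : ℝ) ≤ v - c * u - |c| := by
        rw [le_div_iff₀ hpos] at h3; linarith
      show 0 ≤ v - c * _ - _
      nlinarith⟩
  refine ⟨⌊u - b * n⌋, n, ?_, ?_, ?_, ?_⟩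
  · have := hM2 n; linarith
  · have := hM1 n; linarith
  · have hn1 : ¬ (0 ≤ v - c * ((⌊u - b * ((n + 1 : ℤ) : ℝ)⌋ : ℤ) : ℝ) - ((n + 1 : ℤ) : ℝ)) := by
      intro h
      have := hmax (n + 1) h
      omega
    rw [not_le] at hn1
    have hs := hstep n
    push_cast at hn1 hs
    linarith
  · have : 0 ≤ v - c * ((⌊u - b * n⌋ : ℤ) : ℝ) - n := hn
    linarith

/-- (K4) The cost density `g ↦ (1 + g₀² + h² g₁²)^(-1/2)` is `max 1 h`-Lipschitz. -/
theorem J_lipschitz (h : ℝ) (hh : 0 < h) (g g' : E2) :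
    |1 / Real.sqrt (1 + (g 0) ^ 2 + h ^ 2 * (g 1) ^ 2) -
        1 / Real.sqrt (1 + (g' 0) ^ 2 + h ^ 2 * (g' 1) ^ 2)| ≤ max 1 h * ‖g - g'‖ := by
  set a := g 0 with ha
  set b := h * g 1 with hb
  set a' := g' 0 with ha'
  set b' := h * g' 1 with hb'
  have e1 : 1 + a ^ 2 + h ^ 2 * (g 1) ^ 2 = 1 + a ^ 2 + b ^ 2 := by rw [hb]; ring
  have e2 : 1 + a' ^ 2 + h ^ 2 * (g' 1) ^ 2 = 1 + a' ^ 2 + b' ^ 2 := by rw [hb']; ring
  rw [e1, e2]
  set X := Real.sqrt (1 + a ^ 2 + b ^ 2) with hX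
  set Y := Real.sqrt (1 + a' ^ 2 + b' ^ 2) with hY
  have hXsq : X ^ 2 = 1 + a ^ 2 + b ^ 2 := Real.sq_sqrt (by positivity)
  have hYsq : Y ^ 2 = 1 + a' ^ 2 + b' ^ 2 := Real.sq_sqrt (by positivity)
  have hX1 : 1 ≤ X := by
    rw [hX]; exact Real.one_le_sqrt.mpr (by nlinarith [sq_nonneg a, sq_nonneg b])
  have hY1 : 1 ≤ Y := by
    rw [hY]; exact Real.one_le_sqrt.mpr (by nlinarith [sq_nonneg a', sq_nonneg b'])
  -- Cauchy–Schwarz
  have hCS : 1 + a * a' + b * b' ≤ X * Y := by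
    have h1 : (1 + a * a' + b * b') ^ 2 ≤ (X * Y) ^ 2 := by
      rw [mul_pow, hXsq, hYsq]
      nlinarith [sq_nonneg (a - a'), sq_nonneg (b - b'), sq_nonneg (a * b' - a' * b)]
    have h2 : 0 ≤ X * Y := by positivity
    nlinarith [abs_le_of_sq_le_sq' h1 h2]
  have hD : (X - Y) ^ 2 ≤ (a - a') ^ 2 + (b - b') ^ 2 := by nlinarith
  have hXY : |X - Y| ≤ Real.sqrt ((a - a') ^ 2 + (b - b') ^ 2) := Real.abs_le_sqrt hD
  have hinv : |1 / X - 1 / Y| ≤ |X - Y| := by
    have hXpos : 0 < X := by linarith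
    have hYpos : 0 < Y := by linarith
    have : 1 / X - 1 / Y = (Y - X) / (X * Y) := by field_simp
    rw [this, abs_div, abs_sub_comm Y X]
    have hXYpos : 1 ≤ |X * Y| := by
      rw [abs_of_pos (by positivity)]; nlinarith
    exact div_le_self (abs_nonneg _) hXYpos
  have hnorm : ‖g - g'‖ = Real.sqrt ((g 0 - g' 0) ^ 2 + (g 1 - g' 1) ^ 2) := by
    rw [EuclideanSpace.norm_eq]
    simp [Fin.sum_univ_two]
  have hmax1 : (1 : ℝ) ≤ max 1 h := le_max_left _ _
  have hmaxh : h ≤ max 1 h := le_max_right _ _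
  have hfin : Real.sqrt ((a - a') ^ 2 + (b - b') ^ 2) ≤ max 1 h * ‖g - g'‖ := by
    rw [hnorm]
    have hm0 : 0 ≤ max 1 h := by linarith
    rw [show max 1 h * Real.sqrt ((g 0 - g' 0) ^ 2 + (g 1 - g' 1) ^ 2)
        = Real.sqrt ((max 1 h) ^ 2 * ((g 0 - g' 0) ^ 2 + (g 1 - g' 1) ^ 2)) by
      rw [Real.sqrt_mul (by positivity), Real.sqrt_sq hm0]]
    apply Real.sqrt_le_sqrt
    have hb2 : (b - b') ^ 2 = h ^ 2 * (g 1 - g' 1) ^ 2 := by rw [hb, hb']; ring
    rw [hb2]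
    have hm1 : (1 : ℝ) ≤ (max 1 h) ^ 2 := by nlinarith
    have hm2 : h ^ 2 ≤ (max 1 h) ^ 2 := by nlinarith
    nlinarith [sq_nonneg (g 0 - g' 0), sq_nonneg (g 1 - g' 1)]
  linarith

/-- (K3a) Rotated half-open squares are measurable. -/
theorem measurableSet_sq (f : OrthonormalBasis (Fin 2) ℝ E2) (c : E2) (ρ : ℝ) :
    MeasurableSet (sq f c ρ) := by
  have hset : sq f c ρ = ⋂ k : Fin 2,
      ({p : E2 | 0 ≤ inner ℝ (f k) (p - c)} ∩ {p : E2 | inner ℝ (f k) (p - c) < ρ}) := by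
    ext p
    simp only [Crest.Agent.Helper5.sq, Set.mem_ofPred_eq, Set.mem_iInter, Set.mem_inter_iff]
  rw [hset]
  refine MeasurableSet.iInter fun k => MeasurableSet.inter ?_ ?_
  · exact (isClosed_le continuous_const (by fun_prop)).measurableSet
  · exact (isOpen_lt (by fun_prop) continuous_const).measurableSet

/-- (K3b) A rotated half-open square of side `ρ` has area `ρ²`. -/
theorem volume_sq (f : OrthonormalBasis (Fin 2) ℝ E2) (c : E2) (ρ : ℝ) (hρ : 0 ≤ ρ) :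
    MeasureTheory.volume (sq f c ρ) = ENNReal.ofReal (ρ ^ 2) := by
  have hmp : MeasureTheory.MeasurePreserving (fun p : E2 => WithLp.ofLp (f.repr (p - c)))
      MeasureTheory.volume MeasureTheory.volume := by
    have h1 : MeasureTheory.MeasurePreserving (fun p : E2 => p - c)
        MeasureTheory.volume MeasureTheory.volume :=
      MeasureTheory.measurePreserving_sub_right MeasureTheory.volume c
    have h2 := f.measurePreserving_repr
    have h3 := PiLp.volume_preserving_ofLp (Fin 2)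
    exact h3.comp (h2.comp h1)
  have hset : sq f c ρ = (fun p : E2 => WithLp.ofLp (f.repr (p - c))) ⁻¹'
      (Set.pi Set.univ fun _ : Fin 2 => Set.Ico (0 : ℝ) ρ) := by
    ext p
    simp only [Crest.Agent.Helper5.sq, Set.mem_ofPred_eq, Set.mem_preimage, Set.mem_pi, Set.mem_univ,
      true_implies, Set.mem_Ico, OrthonormalBasis.repr_apply_apply]
  rw [hset, hmp.measure_preimage
    (MeasurableSet.univ_pi fun _ => measurableSet_Ico).nullMeasurableSet, Real.volume_pi_Ico]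
  simp only [sub_zero, Finset.prod_const, Finset.card_univ, Fintype.card_fin]
  exact (ENNReal.ofReal_pow hρ 2).symm

/-- (K2) A traceless endomorphism of the Euclidean plane has zero diagonal in a suitable
orthonormal frame. -/
theorem exists_frame (A : E2 →L[ℝ] E2) (htr : LinearMap.trace ℝ _ A.toLinearMap = 0) :
    ∃ (f : OrthonormalBasis (Fin 2) ℝ E2) (α γ : ℝ), A (f 0) = γ • f 1 ∧ A (f 1) = α • f 0 ∧
      LinearMap.det A.toLinearMap = -(α * γ) := by
  classical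
  obtain ⟨b₀, hb₀⟩ : ∃ b : OrthonormalBasis (Fin 2) ℝ E2, b = EuclideanSpace.basisFun (Fin 2) ℝ :=
    ⟨_, rfl⟩
  clear hb₀
  have h00 : inner ℝ (b₀ 0) (b₀ 0) = (1 : ℝ) := by
    simp
  have h11 : inner ℝ (b₀ 1) (b₀ 1) = (1 : ℝ) := by
    simp
  have h01 : inner ℝ (b₀ 0) (b₀ 1) = (0 : ℝ) := by
    simp
  have h10 : inner ℝ (b₀ 1) (b₀ 0) = (0 : ℝ) := by
    simp
  obtain ⟨e, he_def⟩ : ∃ e : ℝ → E2, e = fun θ => Real.cos θ • b₀ 0 + Real.sin θ • b₀ 1 := ⟨_, rfl⟩
  obtain ⟨e', he'_def⟩ : ∃ e' : ℝ → E2, e' = fun θ => (-Real.sin θ) • b₀ 0 + Real.cos θ • b₀ 1 :=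
    ⟨_, rfl⟩
  have he : Continuous e := by rw [he_def]; fun_prop
  have hφc : Continuous (fun θ => inner ℝ (e θ) (A (e θ))) := he.inner (A.continuous.comp he)
  have hφ0 : inner ℝ (e 0) (A (e 0)) = inner ℝ (b₀ 0) (A (b₀ 0)) := by simp [he_def]
  have hφ1 : inner ℝ (e (Real.pi / 2)) (A (e (Real.pi / 2))) = inner ℝ (b₀ 1) (A (b₀ 1)) := by
    simp [he_def]
  have htr0 : inner ℝ (e 0) (A (e 0)) + inner ℝ (e (Real.pi / 2)) (A (e (Real.pi / 2))) = (0 : ℝ) := by
    rw [hφ0, hφ1]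
    have h := LinearMap.trace_eq_sum_inner A.toLinearMap b₀
    rw [htr, Fin.sum_univ_two] at h
    simpa using h.symm
  obtain ⟨θ, -, hθ⟩ : ∃ θ ∈ Set.Icc (0 : ℝ) (Real.pi / 2), inner ℝ (e θ) (A (e θ)) = (0 : ℝ) := by
    have hpi : (0 : ℝ) ≤ Real.pi / 2 := by positivity
    rcases le_total (inner ℝ (e 0) (A (e 0))) (0 : ℝ) with h | h
    · have h0 : (0 : ℝ) ∈ Set.Icc (inner ℝ (e 0) (A (e 0)))
          (inner ℝ (e (Real.pi / 2)) (A (e (Real.pi / 2)))) := ⟨h, by linarith⟩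
      exact intermediate_value_Icc hpi hφc.continuousOn h0
    · have h0 : (0 : ℝ) ∈ Set.Icc (inner ℝ (e (Real.pi / 2)) (A (e (Real.pi / 2))))
          (inner ℝ (e 0) (A (e 0))) := ⟨by linarith, h⟩
      exact intermediate_value_Icc' hpi hφc.continuousOn h0
  have hcs : Real.cos θ ^ 2 + Real.sin θ ^ 2 = 1 := Real.cos_sq_add_sin_sq θ
  have hee : inner ℝ (e θ) (e θ) = (1 : ℝ) := by
    simp only [he_def, inner_add_left, inner_add_right, real_inner_smul_left, real_inner_smul_right,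
      h00, h11, h01, h10]
    nlinarith [hcs]
  have hee' : inner ℝ (e θ) (e' θ) = (0 : ℝ) := by
    simp only [he_def, he'_def, inner_add_left, inner_add_right, real_inner_smul_left,
      real_inner_smul_right, h00, h11, h01, h10]
    ring
  have he'e : inner ℝ (e' θ) (e θ) = (0 : ℝ) := by
    rw [real_inner_comm]; exact hee'
  have he'e' : inner ℝ (e' θ) (e' θ) = (1 : ℝ) := by
    simp only [he'_def, inner_add_left, inner_add_right, real_inner_smul_left,
      real_inner_smul_right, h00, h11, h01, h10]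
    nlinarith [hcs]
  have hv : Orthonormal ℝ ![e θ, e' θ] := by
    rw [orthonormal_iff_ite]
    intro i j
    have hn : ‖e θ‖ = 1 := by
      have h := real_inner_self_eq_norm_sq (e θ)
      rw [hee] at h
      nlinarith [norm_nonneg (e θ)]
    have hn' : ‖e' θ‖ = 1 := by
      have h := real_inner_self_eq_norm_sq (e' θ)
      rw [he'e'] at h
      nlinarith [norm_nonneg (e' θ)]
    fin_cases i <;> fin_cases j <;> simp [hn, hn', hee', he'e]
  have hcard : Fintype.card (Fin 2) = Module.finrank ℝ E2 := by simp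
  obtain ⟨f, hf⟩ : ∃ f : OrthonormalBasis (Fin 2) ℝ E2, ⇑f = ![e θ, e' θ] := by
    refine ⟨(basisOfOrthonormalOfCardEqFinrank hv hcard).toOrthonormalBasis ?_, ?_⟩
    · rw [coe_basisOfOrthonormalOfCardEqFinrank]; exact hv
    · rw [Module.Basis.coe_toOrthonormalBasis, coe_basisOfOrthonormalOfCardEqFinrank]
  have hf0 : f 0 = e θ := by rw [hf]; rfl
  have hf1 : f 1 = e' θ := by rw [hf]; rfl
  have hd0 : inner ℝ (f 0) (A (f 0)) = (0 : ℝ) := by rw [hf0]; exact hθ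
  have hd1 : inner ℝ (f 1) (A (f 1)) = (0 : ℝ) := by
    have h := LinearMap.trace_eq_sum_inner A.toLinearMap f
    rw [htr, Fin.sum_univ_two] at h
    have h2 : inner ℝ (f 0) (A (f 0)) + inner ℝ (f 1) (A (f 1)) = (0 : ℝ) := by
      simpa using h.symm
    linarith
  refine ⟨f, inner ℝ (f 0) (A (f 1)), inner ℝ (f 1) (A (f 0)), ?_, ?_, ?_⟩
  · have h := f.sum_repr' (A (f 0))
    rw [Fin.sum_univ_two, hd0] at h
    simpa using h.symm
  · have h := f.sum_repr' (A (f 1))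
    rw [Fin.sum_univ_two, hd1] at h
    simpa using h.symm
  · rw [← LinearMap.det_toMatrix f.toBasis, Matrix.det_fin_two]
    simp [LinearMap.toMatrix_apply, OrthonormalBasis.repr_apply_apply, hd0, hd1]

end Crest.Agent.Helper22
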